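import Mathlib

/-!
P245, row EXT of CONC (helper607 #18677), third seat (helper719): a Poincaré-type inequality for
smooth compactly supported functions extends to `C¹` functions with bounded gradient.
-/

set_option linter.all false

open MeasureTheory Filter Topology Set Metric Convolution
open scoped NNReal ENNReal ContDiff

namespace Vale.Agent.P245.H719

abbrev E (n : ℕ) := EuclideanSpace ℝ (Fin n)

variable {n : ℕ}

theorem smooth_approx {v : E n → ℝ} (hv : ContDiff ℝ 1 v) (hs : HasCompactSupport v) {δ : ℝ}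
    (hδ : 0 < δ) : ∃ f : E n → ℝ, ContDiff ℝ ∞ f ∧ HasCompactSupport f ∧ (∀ x, |f x - v x| ≤ δ) ∧
      ∀ x, ‖fderiv ℝ f x - fderiv ℝ v x‖ ≤ δ := by
  have hc' : Continuous (fderiv ℝ v) := hv.continuous_fderiv (by norm_num)
  have u1 : UniformContinuous v := hs.uniformContinuous_of_continuous hv.continuous
  have u2 : UniformContinuous (fderiv ℝ v) := (hs.fderiv ℝ).uniformContinuous_of_continuous hc'
  obtain ⟨η1, h1, hη1⟩ := Metric.uniformContinuous_iff.1 u1 δ hδ
  obtain ⟨η2, h2, hη2⟩ := Metric.uniformContinuous_iff.1 u2 δ hδ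
  set η := min η1 η2 with hη
  have hη0 : 0 < η := lt_min h1 h2
  let φ : ContDiffBump (0 : E n) := ⟨η / 2, η, by positivity, by linarith⟩
  have hφ : LocallyIntegrable (φ.normed (volume : Measure (E n))) volume :=
    (φ.continuous_normed).locallyIntegrable
  refine ⟨φ.normed volume ⋆[ContinuousLinearMap.lsmul ℝ ℝ, volume] v, ?_, ?_, ?_, ?_⟩
  · exact φ.hasCompactSupport_normed.contDiff_convolution_left _ φ.contDiff_normed
      hv.continuous.locallyIntegrable
  · exact φ.hasCompactSupport_normed.convolution _ hs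
  · intro x
    have := φ.dist_normed_convolution_le (μ := (volume : Measure (E n))) (g := v) (x₀ := x) (ε := δ)
      hv.continuous.aestronglyMeasurable (fun y hy => (hη1 (lt_of_lt_of_le hy (min_le_left _ _))).le)
    rwa [Real.dist_eq] at this
  · intro x
    have hd := hs.hasFDerivAt_convolution_right (ContinuousLinearMap.lsmul ℝ ℝ) hφ hv x
    rw [hd.fderiv]
    have e : ((φ.normed volume ⋆[(ContinuousLinearMap.lsmul ℝ ℝ).precompR (E n), volume]
        fderiv ℝ v) x) = (φ.normed volume ⋆[ContinuousLinearMap.lsmul ℝ ℝ, volume] fderiv ℝ v) x := by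
      rw [convolution_def, convolution_def]
      refine integral_congr_ae (Eventually.of_forall fun t => ?_)
      ext y
      rfl
    rw [e, ← dist_eq_norm]
    exact φ.dist_normed_convolution_le (μ := (volume : Measure (E n))) (g := fderiv ℝ v) (x₀ := x)
      (ε := δ) hc'.aestronglyMeasurable
      (fun y hy => (hη2 (lt_of_lt_of_le hy (min_le_right _ _))).le)

theorem norm_gradient (f : E n → ℝ) (x : E n) : ‖gradient f x‖ = ‖fderiv ℝ f x‖ := by
  unfold gradient
  exact (InnerProductSpace.toDual ℝ (E n)).symm.norm_map _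

/-- the approximating sequence -/
theorem exists_seq {u : E n → ℝ} (hu : ContDiff ℝ 1 u) {L : ℝ} (hL : ∀ x, ‖fderiv ℝ u x‖ ≤ L) :
    ∃ (f : ℕ → E n → ℝ) (A B : ℝ), 0 ≤ A ∧ (∀ k, ContDiff ℝ ∞ (f k)) ∧ (∀ k, HasCompactSupport (f k)) ∧
      (∀ k x, |f k x| ≤ A * (1 + ‖x‖)) ∧ (∀ k x, ‖fderiv ℝ (f k) x‖ ≤ B) ∧
      (∀ x, Tendsto (fun k => f k x) atTop (𝓝 (u x))) ∧
      (∀ x, Tendsto (fun k => fderiv ℝ (f k) x) atTop (𝓝 (fderiv ℝ u x))) := by
  have hL0 : 0 ≤ L := (norm_nonneg _).trans (hL 0)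
  let ψ : ContDiffBump (0 : E n) := ⟨1, 2, by norm_num, by norm_num⟩
  have hψs : ContDiff ℝ ∞ (ψ : E n → ℝ) := ψ.contDiff
  obtain ⟨B0, hB0⟩ := ((hψs.continuous_fderiv (by simp)).bounded_above_of_compact_support
    (ψ.hasCompactSupport.fderiv ℝ))
  have hB00 : 0 ≤ B0 := (norm_nonneg _).trans (hB0 0)
  have hub : ∀ x, |u x| ≤ |u 0| + L * ‖x‖ := by
    intro x
    have h1 := Convex.norm_image_sub_le_of_norm_fderiv_le (𝕜 := ℝ) (f := u) (C := L)
      (s := (Set.univ : Set (E n))) (fun y _ => (hu.differentiable (by norm_num)) y)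
      (fun y _ => hL y) convex_univ (Set.mem_univ (0 : E n)) (Set.mem_univ x)
    rw [sub_zero, Real.norm_eq_abs] at h1
    have h2 := abs_sub_abs_le_abs_sub (u x) (u 0)
    linarith
  set c : ℕ → ℝ := fun k => ((k : ℝ) + 1)⁻¹ with hc
  have hcpos : ∀ k, 0 < c k := fun k => by positivity
  set χ : ℕ → E n → ℝ := fun k x => ψ (c k • x) with hχ
  have hχs : ∀ k, ContDiff ℝ ∞ (χ k) := fun k => hψs.comp (contDiff_const_smul (c k))
  have hχ01 : ∀ k x, |χ k x| ≤ 1 := fun k x => by
    rw [abs_of_nonneg ψ.nonneg]; exact ψ.le_one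
  have hχd : ∀ k x, fderiv ℝ (χ k) x = c k • fderiv ℝ (ψ : E n → ℝ) (c k • x) := by
    intro k x
    have h1 : HasFDerivAt (ψ : E n → ℝ) (fderiv ℝ (ψ : E n → ℝ) (c k • x)) (c k • x) :=
      ((hψs.differentiable (by simp)) _).hasFDerivAt
    have h2 : HasFDerivAt (fun y : E n => c k • y) (c k • ContinuousLinearMap.id ℝ (E n)) x :=
      (hasFDerivAt_id x).const_smul (c k)
    have h3 := h1.comp x h2
    have h4 : HasFDerivAt (χ k) ((fderiv ℝ (ψ : E n → ℝ) (c k • x)).comp
      (c k • ContinuousLinearMap.id ℝ (E n))) x := h3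
    rw [h4.fderiv]
    ext y
    simp
  have hχdb : ∀ k x, ‖fderiv ℝ (χ k) x‖ ≤ c k * B0 := by
    intro k x
    rw [hχd, norm_smul, Real.norm_eq_abs, abs_of_pos (hcpos k)]
    exact mul_le_mul_of_nonneg_left (hB0 _) (hcpos k).le
  have hχz : ∀ k x, 2 < c k * ‖x‖ → fderiv ℝ (χ k) x = 0 := by
    intro k x hx
    rw [hχd]
    have : fderiv ℝ (ψ : E n → ℝ) (c k • x) = 0 := by
      by_contra hne
      have h1 : c k • x ∈ tsupport (ψ : E n → ℝ) :=
        support_fderiv_subset ℝ (Function.mem_support.2 hne)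
      rw [ψ.tsupport_eq, mem_closedBall, dist_zero_right, norm_smul, Real.norm_eq_abs,
        abs_of_pos (hcpos k)] at h1
      have : ψ.rOut = 2 := rfl
      linarith
    rw [this, smul_zero]
  -- the truncated functions
  set v : ℕ → E n → ℝ := fun k x => χ k x * u x with hv
  have hvs : ∀ k, ContDiff ℝ 1 (v k) := fun k => ((hχs k).of_le (by simp)).mul hu
  have hvc : ∀ k, HasCompactSupport (v k) := by
    intro k
    have h1 : HasCompactSupport (χ k) := by
      refine HasCompactSupport.of_support_subset_isCompact (isCompact_closedBall (0 : E n) (2 * ((k : ℝ) + 1))) ?_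
      intro x hx
      have h2 : c k • x ∈ Function.support (ψ : E n → ℝ) := hx
      rw [ψ.support_eq, mem_ball, dist_zero_right, norm_smul, Real.norm_eq_abs,
        abs_of_pos (hcpos k)] at h2
      rw [mem_closedBall, dist_zero_right]
      have h3 : ψ.rOut = 2 := rfl
      rw [h3, hc] at h2
      simp only at h2
      rw [inv_mul_lt_iff₀ (by positivity)] at h2
      linarith
    exact h1.mul_right
  have hvd : ∀ k x, fderiv ℝ (v k) x = χ k x • fderiv ℝ u x + u x • fderiv ℝ (χ k) x := by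
    intro k x
    exact fderiv_mul (((hχs k).differentiable (by simp)) x) ((hu.differentiable (by norm_num)) x)
  have hvdb : ∀ k x, ‖fderiv ℝ (v k) x‖ ≤ L + (|u 0| + 2 * L) * B0 := by
    intro k x
    rw [hvd]
    refine (norm_add_le _ _).trans (add_le_add ?_ ?_)
    · rw [norm_smul, Real.norm_eq_abs]
      calc |χ k x| * ‖fderiv ℝ u x‖ ≤ 1 * L :=
            mul_le_mul (hχ01 k x) (hL x) (norm_nonneg _) zero_le_one
        _ = L := one_mul _
    · by_cases hx : 2 < c k * ‖x‖
      · rw [hχz k x hx, smul_zero, norm_zero]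
        positivity
      · rw [not_lt] at hx
        rw [norm_smul, Real.norm_eq_abs]
        have hck : c k ≤ 1 := by
          rw [hc]; simp only
          exact inv_le_one_of_one_le₀ (by have : (0 : ℝ) ≤ k := Nat.cast_nonneg k; linarith)
        calc |u x| * ‖fderiv ℝ (χ k) x‖ ≤ (|u 0| + L * ‖x‖) * (c k * B0) :=
              mul_le_mul (hub x) (hχdb k x) (norm_nonneg _) (by positivity)
          _ = (c k * |u 0| + L * (c k * ‖x‖)) * B0 := by ring
          _ ≤ (1 * |u 0| + L * 2) * B0 := by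
              refine mul_le_mul_of_nonneg_right (add_le_add ?_ ?_) hB00
              · exact mul_le_mul_of_nonneg_right hck (abs_nonneg _)
              · exact mul_le_mul_of_nonneg_left hx hL0
          _ = (|u 0| + 2 * L) * B0 := by ring
  -- eventually the cut-off is one
  have hev : ∀ x : E n, ∀ᶠ k in atTop, χ k x = 1 ∧ fderiv ℝ (χ k) x = 0 := by
    intro x
    filter_upwards [eventually_gt_atTop ⌈‖x‖⌉₊] with k hk
    have h1 : ‖x‖ < (k : ℝ) := (Nat.le_ceil _).trans_lt (by exact_mod_cast hk)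
    have h2 : c k • x ∈ ball (0 : E n) ψ.rIn := by
      rw [mem_ball, dist_zero_right, norm_smul, Real.norm_eq_abs, abs_of_pos (hcpos k)]
      have h3 : ψ.rIn = 1 := rfl
      rw [h3, hc]; simp only
      rw [inv_mul_lt_iff₀ (by positivity)]
      linarith
    have h4 := ψ.eventuallyEq_one_of_mem_ball h2
    refine ⟨h4.eq_of_nhds, ?_⟩
    rw [hχd, h4.fderiv_eq]
    simp
  choose f hf1 hf2 hf3 hf4 using fun k : ℕ => smooth_approx (hvs k) (hvc k) (hcpos k)
  have hc0 : Tendsto c atTop (𝓝 0) := by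
    have := tendsto_one_div_add_atTop_nhds_zero_nat (𝕜 := ℝ)
    simpa [hc, one_div] using this
  have hck : ∀ k, c k ≤ 1 := fun k => by
    rw [hc]; simp only
    exact inv_le_one_of_one_le₀ (by have : (0 : ℝ) ≤ k := Nat.cast_nonneg k; linarith)
  refine ⟨f, |u 0| + L + 1, L + (|u 0| + 2 * L) * B0 + 1, by positivity, hf1, hf2, ?_, ?_, ?_, ?_⟩
  · intro k x
    have h1 : |f k x| ≤ |v k x| + c k := by
      have := abs_sub_abs_le_abs_sub (f k x) (v k x)
      have := hf3 k x
      linarith
    have h2 : |v k x| ≤ |u x| := by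
      rw [hv]; simp only
      rw [abs_mul]
      exact mul_le_of_le_one_left (abs_nonneg _) (hχ01 k x)
    have h3 := hub x
    have h4 := hck k
    have h5 := norm_nonneg x
    have h6 := abs_nonneg (u 0)
    nlinarith [mul_nonneg h6 h5, mul_nonneg hL0 h5]
  · intro k x
    have h1 : ‖fderiv ℝ (f k) x‖ ≤ ‖fderiv ℝ (v k) x‖ + c k := by
      have h2 := norm_sub_norm_le (fderiv ℝ (f k) x) (fderiv ℝ (v k) x)
      have h3 := hf4 k x
      linarith
    have h2 := hvdb k x
    have h3 := hck k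
    linarith
  · intro x
    have h1 : Tendsto (fun k => f k x - v k x) atTop (𝓝 0) :=
      squeeze_zero_norm (fun k => by rw [Real.norm_eq_abs]; exact hf3 k x) hc0
    have h2 : Tendsto (fun k => v k x) atTop (𝓝 (u x)) := by
      refine tendsto_const_nhds.congr' ?_
      filter_upwards [hev x] with k hk
      rw [hv]; simp only
      rw [hk.1, one_mul]
    have h3 := h1.add h2
    simpa using h3
  · intro x
    have h1 : Tendsto (fun k => fderiv ℝ (f k) x - fderiv ℝ (v k) x) atTop (𝓝 0) :=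
      squeeze_zero_norm (fun k => hf4 k x) hc0
    have h2 : Tendsto (fun k => fderiv ℝ (v k) x) atTop (𝓝 (fderiv ℝ u x)) := by
      refine tendsto_const_nhds.congr' ?_
      filter_upwards [hev x] with k hk
      rw [hvd, hk.1, hk.2, one_smul, smul_zero, add_zero]
    have h3 := h1.add h2
    simpa using h3

theorem ext {n : ℕ} {μ : Measure (E n)} [IsProbabilityMeasure μ]
    (h2 : Integrable (fun x => ‖x‖ ^ 2) μ) (C : ℝ) (K : Matrix (Fin n) (Fin n) ℝ)
    (hP : ∀ f : E n → ℝ, ContDiff ℝ ∞ f → HasCompactSupport f →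
      (∫ x, f x ^ 2 ∂μ) - (∫ x, f x ∂μ) ^ 2 ≤
        C * ∫ x, ∑ i, ∑ j, K i j * (gradient f x i * gradient f x j) ∂μ)
    {u : E n → ℝ} (hu : ContDiff ℝ 1 u) {L : ℝ} (hL : ∀ x, ‖gradient u x‖ ≤ L) :
    (∫ x, u x ^ 2 ∂μ) - (∫ x, u x ∂μ) ^ 2 ≤
      C * ∫ x, ∑ i, ∑ j, K i j * (gradient u x i * gradient u x j) ∂μ := by
  obtain ⟨f, A, B, hA, hf1, hf2, hf3, hf4, hf5, hf6⟩ := exists_seq hu (L := L)
    (fun x => by rw [← norm_gradient]; exact hL x)
  have hdom1 : Integrable (fun x : E n => A * (2 + ‖x‖ ^ 2)) μ :=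
    ((integrable_const (2 : ℝ)).add h2).const_mul A
  have hdom2 : Integrable (fun x : E n => 2 * A ^ 2 * (1 + ‖x‖ ^ 2)) μ :=
    ((integrable_const (1 : ℝ)).add h2).const_mul _
  have t1 : Tendsto (fun k => ∫ x, f k x ∂μ) atTop (𝓝 (∫ x, u x ∂μ)) := by
    refine tendsto_integral_of_dominated_convergence _
      (fun k => (hf1 k).continuous.aestronglyMeasurable) hdom1 (fun k => ?_)
      (Eventually.of_forall hf5)
    refine Eventually.of_forall fun x => ?_
    rw [Real.norm_eq_abs]
    refine (hf3 k x).trans (mul_le_mul_of_nonneg_left ?_ hA)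
    nlinarith [sq_nonneg (‖x‖ - 1)]
  have t2 : Tendsto (fun k => ∫ x, f k x ^ 2 ∂μ) atTop (𝓝 (∫ x, u x ^ 2 ∂μ)) := by
    refine tendsto_integral_of_dominated_convergence _
      (fun k => ((hf1 k).continuous.pow 2).aestronglyMeasurable) hdom2 (fun k => ?_)
      (Eventually.of_forall fun x => (hf5 x).pow 2)
    refine Eventually.of_forall fun x => ?_
    rw [Real.norm_eq_abs, abs_pow]
    have h1 : |f k x| ^ 2 ≤ (A * (1 + ‖x‖)) ^ 2 := pow_le_pow_left₀ (abs_nonneg _) (hf3 k x) 2
    refine h1.trans ?_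
    nlinarith [mul_nonneg (sq_nonneg A) (sq_nonneg (‖x‖ - 1))]
  have hgt : ∀ x, Tendsto (fun k => gradient (f k) x) atTop (𝓝 (gradient u x)) := by
    intro x
    have := ((InnerProductSpace.toDual ℝ (E n)).symm.continuous.tendsto _).comp (hf6 x)
    exact this
  have hgi : ∀ x (i : Fin n), Tendsto (fun k => gradient (f k) x i) atTop (𝓝 (gradient u x i)) := by
    intro x i
    have hc : Continuous (fun y : E n => y i) := by fun_prop
    exact (hc.tendsto _).comp (hgt x)
  have hgc : ∀ k, Continuous (fun x => gradient (f k) x) := fun k =>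
    (InnerProductSpace.toDual ℝ (E n)).symm.continuous.comp ((hf1 k).continuous_fderiv (by simp))
  have hgb : ∀ k x (i : Fin n), |gradient (f k) x i| ≤ B := by
    intro k x i
    have h1 : ‖gradient (f k) x‖ ≤ B := by rw [norm_gradient]; exact hf4 k x
    exact (PiLp.norm_apply_le (gradient (f k) x) i).trans h1
  have hB0 : 0 ≤ B := (norm_nonneg _).trans (hf4 0 0)
  have t3 : Tendsto (fun k => ∫ x, ∑ i, ∑ j, K i j * (gradient (f k) x i * gradient (f k) x j) ∂μ)
      atTop (𝓝 (∫ x, ∑ i, ∑ j, K i j * (gradient u x i * gradient u x j) ∂μ)) := by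
    refine tendsto_integral_of_dominated_convergence (fun _ => ∑ i, ∑ j, |K i j| * (B * B))
      (fun k => ?_) (integrable_const _) (fun k => ?_) (Eventually.of_forall fun x => ?_)
    · have hci : ∀ i : Fin n, Continuous (fun x => gradient (f k) x i) := fun i => by
        have hc : Continuous (fun y : E n => y i) := by fun_prop
        exact hc.comp (hgc k)
      refine Continuous.aestronglyMeasurable ?_
      refine continuous_finset_sum _ fun i _ => continuous_finset_sum _ fun j _ => ?_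
      exact continuous_const.mul ((hci i).mul (hci j))
    · refine Eventually.of_forall fun x => ?_
      refine (norm_sum_le _ _).trans (Finset.sum_le_sum fun i _ => ?_)
      refine (norm_sum_le _ _).trans (Finset.sum_le_sum fun j _ => ?_)
      rw [norm_mul, norm_mul, Real.norm_eq_abs, Real.norm_eq_abs, Real.norm_eq_abs]
      refine mul_le_mul_of_nonneg_left ?_ (abs_nonneg _)
      exact mul_le_mul (hgb k x i) (hgb k x j) (abs_nonneg _) hB0
    · refine tendsto_finset_sum _ fun i _ => tendsto_finset_sum _ fun j _ => ?_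
      exact ((hgi x i).mul (hgi x j)).const_mul _
  exact le_of_tendsto_of_tendsto' (t2.sub (t1.pow 2)) (t3.const_mul C)
    (fun k => hP (f k) (hf1 k) (hf2 k))

end Vale.Agent.P245.H719
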